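import Mathlib

/-!
# P335, graph case, module G4 (one half of (J2)): the sharp spectral gap of the Johnson graph

`D` is a finite set, `m = D.card`, and `J(m, p)` is the graph on the `p`-subsets of `D` in which
`S` is adjacent to `insert b (S.erase a)` for `a ∈ S`, `b ∈ D \ S`.  For every function `h` on the
`p`-subsets with sum zero,

  `m * ∑ h T ^ 2 ≤ E_J(h)`,   `E_J(h) = ∑ over unordered adjacent pairs (h T - h T') ^ 2`.

The proof is an induction on `p` through the inclusion matrix between the `p`-subsets and the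
`(p+1)`-subsets; no eigenvectors are used.  Everything is interface-free (Mathlib only).
-/

namespace Vale.Agent.Lib.P335.H18

open Finset

variable {α : Type*} [DecidableEq α]

/-- Double counting on the inclusion graph between the subsets of `D` of sizes `s` and `s + 1`. -/
theorem sum_powersetCard_erase (D : Finset α) (s : ℕ) (h : Finset α → α → ℝ) :
    ∑ T ∈ D.powersetCard (s + 1), ∑ z ∈ T, h (T.erase z) z
      = ∑ U ∈ D.powersetCard s, ∑ z ∈ D \ U, h U z := by
  rw [Finset.sum_sigma', Finset.sum_sigma']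
  refine Finset.sum_bij' (fun p _ => ⟨p.1.erase p.2, p.2⟩) (fun p _ => ⟨insert p.2 p.1, p.2⟩)
    ?_ ?_ ?_ ?_ ?_
  · rintro ⟨T, z⟩ hp
    simp only [mem_sigma, mem_powersetCard, mem_sdiff, mem_erase] at hp ⊢
    obtain ⟨⟨hTD, hTc⟩, hz⟩ := hp
    refine ⟨⟨(erase_subset _ _).trans hTD, ?_⟩, hTD hz, fun h => h.1 rfl⟩
    rw [card_erase_of_mem hz, hTc]; rfl
  · rintro ⟨U, z⟩ hp
    simp only [mem_sigma, mem_powersetCard, mem_sdiff] at hp ⊢
    obtain ⟨⟨hUD, hUc⟩, hzD, hzU⟩ := hp
    refine ⟨⟨?_, ?_⟩, mem_insert_self _ _⟩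
    · intro w hw
      rcases mem_insert.mp hw with rfl | hw
      · exact hzD
      · exact hUD hw
    · rw [card_insert_of_notMem hzU, hUc]
  · rintro ⟨T, z⟩ hp
    simp only [mem_sigma, mem_powersetCard] at hp
    simp [insert_erase hp.2]
  · rintro ⟨U, z⟩ hp
    simp only [mem_sigma, mem_powersetCard, mem_sdiff] at hp
    simp [erase_insert hp.2.2]
  · rintro ⟨T, z⟩ hp
    rfl

/-- The complete-graph identity. -/
theorem sum_sq_sub {ι : Type*} (A : Finset ι) (x : ι → ℝ) :
    ∑ a ∈ A, ∑ b ∈ A, (x a - x b) ^ 2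
      = 2 * ((A.card : ℝ) * ∑ a ∈ A, x a ^ 2 - (∑ a ∈ A, x a) ^ 2) := by
  have h1 : ∀ a ∈ A, ∑ b ∈ A, (x a - x b) ^ 2
      = (A.card : ℝ) * x a ^ 2 - 2 * x a * (∑ b ∈ A, x b) + ∑ b ∈ A, x b ^ 2 := by
    intro a _
    simp only [sub_sq, Finset.sum_add_distrib, Finset.sum_sub_distrib, Finset.sum_const,
      nsmul_eq_mul, ← Finset.mul_sum]
  rw [Finset.sum_congr rfl h1]
  simp only [Finset.sum_add_distrib, Finset.sum_sub_distrib, Finset.sum_const, nsmul_eq_mul,
    ← Finset.mul_sum, ← Finset.sum_mul]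
  ring

/-- The inclusion operator from functions on `(k+1)`-subsets to functions on `k`-subsets. -/
def W (D : Finset α) (h : Finset α → ℝ) (U : Finset α) : ℝ := ∑ z ∈ D \ U, h (insert z U)

/-- The inclusion operator from functions on `k`-subsets to functions on `(k+1)`-subsets. -/
def W' (v : Finset α → ℝ) (T : Finset α) : ℝ := ∑ z ∈ T, v (T.erase z)

/-- Twice the Johnson energy, in swap form: the sum over ordered adjacent pairs. -/
def swapSum (D : Finset α) (j : ℕ) (F : Finset α → Finset α → ℝ) : ℝ :=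
  ∑ S ∈ D.powersetCard j, ∑ a ∈ S, ∑ b ∈ D \ S, F S (insert b (S.erase a))

/-- Pairs of `(k+1)`-subsets with a common `k`-subset, parametrised by the common subset. -/
theorem down_eq_swap (D : Finset α) (k : ℕ) (F : Finset α → Finset α → ℝ)
    (hF : ∀ S, F S S = 0) :
    ∑ U ∈ D.powersetCard k, ∑ a ∈ D \ U, ∑ b ∈ D \ U, F (insert a U) (insert b U)
      = swapSum D (k + 1) F := by
  unfold swapSum
  rw [← sum_powersetCard_erase D k (fun U a => ∑ b ∈ D \ U, F (insert a U) (insert b U))]
  refine Finset.sum_congr rfl (fun T hT => Finset.sum_congr rfl (fun z hz => ?_))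
  obtain ⟨hTD, _⟩ := mem_powersetCard.mp hT
  have h1 : D \ T.erase z = insert z (D \ T) := by
    ext w
    simp only [mem_sdiff, mem_erase, mem_insert]
    constructor
    · rintro ⟨hwD, hw⟩
      by_cases hwz : w = z
      · exact Or.inl hwz
      · exact Or.inr ⟨hwD, fun hwT => hw ⟨hwz, hwT⟩⟩
    · rintro (rfl | ⟨hwD, hwT⟩)
      · exact ⟨hTD hz, fun h => h.1 rfl⟩
      · exact ⟨hwD, fun h => hwT h.2⟩
  have h2 : z ∉ D \ T := fun h => (mem_sdiff.mp h).2 hz
  rw [h1, Finset.sum_insert h2, insert_erase hz, hF, zero_add]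

/-- Pairs of `k`-subsets inside a common `(k+1)`-subset, parametrised by the common superset. -/
theorem up_eq_swap (D : Finset α) (k : ℕ) (F : Finset α → Finset α → ℝ)
    (hF : ∀ S, F S S = 0) :
    ∑ T ∈ D.powersetCard (k + 1), ∑ z ∈ T, ∑ w ∈ T, F (T.erase z) (T.erase w)
      = swapSum D k F := by
  unfold swapSum
  have h0 := sum_powersetCard_erase D k
    (fun S z => ∑ w ∈ insert z S, F S ((insert z S).erase w))
  have hL : ∑ T ∈ D.powersetCard (k + 1), ∑ z ∈ T, ∑ w ∈ T, F (T.erase z) (T.erase w)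
      = ∑ T ∈ D.powersetCard (k + 1), ∑ z ∈ T,
          ∑ w ∈ insert z (T.erase z), F (T.erase z) ((insert z (T.erase z)).erase w) := by
    refine Finset.sum_congr rfl (fun T _ => Finset.sum_congr rfl (fun z hz => ?_))
    rw [insert_erase hz]
  rw [hL, h0]
  refine Finset.sum_congr rfl (fun S _ => ?_)
  have h1 : ∀ z ∈ D \ S, ∑ w ∈ insert z S, F S ((insert z S).erase w)
      = ∑ w ∈ S, F S (insert z (S.erase w)) := by
    intro z hz
    have hzS : z ∉ S := (mem_sdiff.mp hz).2
    rw [Finset.sum_insert hzS, erase_insert hzS, hF, zero_add]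
    refine Finset.sum_congr rfl (fun w hw => ?_)
    have hwz : z ≠ w := fun h => hzS (h ▸ hw)
    rw [erase_insert_of_ne hwz]
  rw [Finset.sum_congr rfl h1, Finset.sum_comm]

/-- The Johnson energy `E_J(g)` on the `j`-subsets of `D`: the sum of `(g S - g S') ^ 2` over the
unordered adjacent pairs (half of the sum over the ordered pairs `S`, `insert b (S.erase a)`). -/
noncomputable def energy (D : Finset α) (j : ℕ) (g : Finset α → ℝ) : ℝ :=
  (1 / 2) * swapSum D j (fun S S' => (g S - g S') ^ 2)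

theorem energy_nonneg (D : Finset α) (j : ℕ) (g : Finset α → ℝ) : 0 ≤ energy D j g := by
  unfold energy swapSum
  have : 0 ≤ ∑ S ∈ D.powersetCard j, ∑ a ∈ S, ∑ b ∈ D \ S,
      (g S - g (insert b (S.erase a))) ^ 2 :=
    Finset.sum_nonneg (fun S _ => Finset.sum_nonneg (fun a _ =>
      Finset.sum_nonneg (fun b _ => sq_nonneg _)))
  linarith

/-- `∑_S ∑_{z ∉ S} g (insert z S) = (k+1) ∑_T g T`. -/
theorem sum_up (D : Finset α) (k : ℕ) (g : Finset α → ℝ) :
    ∑ U ∈ D.powersetCard k, ∑ z ∈ D \ U, g (insert z U)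
      = ((k : ℝ) + 1) * ∑ T ∈ D.powersetCard (k + 1), g T := by
  rw [← sum_powersetCard_erase D k (fun U z => g (insert z U)), Finset.mul_sum]
  refine Finset.sum_congr rfl (fun T hT => ?_)
  have hc : T.card = k + 1 := (mem_powersetCard.mp hT).2
  rw [Finset.sum_congr rfl (fun z hz => by rw [insert_erase hz]), Finset.sum_const, hc,
    nsmul_eq_mul]
  push_cast; ring

/-- `∑_T ∑_{z ∈ T} g (T.erase z) = (m-k) ∑_S g S`. -/
theorem sum_down (D : Finset α) (k : ℕ) (g : Finset α → ℝ) :
    ∑ T ∈ D.powersetCard (k + 1), ∑ z ∈ T, g (T.erase z)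
      = ((D.card : ℝ) - k) * ∑ U ∈ D.powersetCard k, g U := by
  rw [sum_powersetCard_erase D k (fun U _ => g U), Finset.mul_sum]
  refine Finset.sum_congr rfl (fun U hU => ?_)
  obtain ⟨hUD, hc⟩ := mem_powersetCard.mp hU
  rw [Finset.sum_const, card_sdiff_of_subset hUD, hc, nsmul_eq_mul]
  have : k ≤ D.card := by
    have := card_le_card hUD
    omega
  push_cast [Nat.cast_sub this]; ring

/-- `(★)`: the energy on the `(k+1)`-subsets through the down operator `W`. -/
theorem energy_succ (D : Finset α) (k : ℕ) (h : Finset α → ℝ) :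
    energy D (k + 1) h
      = ((k : ℝ) + 1) * ((D.card : ℝ) - k) * ∑ T ∈ D.powersetCard (k + 1), h T ^ 2
        - ∑ U ∈ D.powersetCard k, W D h U ^ 2 := by
  unfold energy
  rw [← down_eq_swap D k (fun S S' => (h S - h S') ^ 2) (fun S => by simp)]
  have h1 : ∀ U ∈ D.powersetCard k,
      ∑ a ∈ D \ U, ∑ b ∈ D \ U, (h (insert a U) - h (insert b U)) ^ 2
        = 2 * (((D.card : ℝ) - k) * ∑ a ∈ D \ U, h (insert a U) ^ 2 - W D h U ^ 2) := by
    intro U hU
    obtain ⟨hUD, hc⟩ := mem_powersetCard.mp hU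
    rw [sum_sq_sub (D \ U) (fun a => h (insert a U)), card_sdiff_of_subset hUD, hc]
    have : k ≤ D.card := by
      have := card_le_card hUD
      omega
    unfold W
    push_cast [Nat.cast_sub this]; ring
  rw [Finset.sum_congr rfl h1, ← Finset.mul_sum, Finset.sum_sub_distrib, ← Finset.mul_sum,
    sum_up D k (fun T => h T ^ 2)]
  ring

/-- `(★★)`: the energy on the `k`-subsets through the up operator `W'`. -/
theorem energy_up (D : Finset α) (k : ℕ) (v : Finset α → ℝ) :
    energy D k v
      = ((k : ℝ) + 1) * ((D.card : ℝ) - k) * ∑ U ∈ D.powersetCard k, v U ^ 2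
        - ∑ T ∈ D.powersetCard (k + 1), W' v T ^ 2 := by
  unfold energy
  rw [← up_eq_swap D k (fun S S' => (v S - v S') ^ 2) (fun S => by simp)]
  have h1 : ∀ T ∈ D.powersetCard (k + 1),
      ∑ z ∈ T, ∑ w ∈ T, (v (T.erase z) - v (T.erase w)) ^ 2
        = 2 * (((k : ℝ) + 1) * ∑ z ∈ T, v (T.erase z) ^ 2 - W' v T ^ 2) := by
    intro T hT
    have hc : T.card = k + 1 := (mem_powersetCard.mp hT).2
    rw [sum_sq_sub T (fun z => v (T.erase z)), hc]
    unfold W'
    push_cast; ring
  rw [Finset.sum_congr rfl h1, ← Finset.mul_sum, Finset.sum_sub_distrib, ← Finset.mul_sum,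
    sum_down D k (fun U => v U ^ 2)]
  ring

/-- `W` and `W'` are adjoint. -/
theorem sum_W_mul (D : Finset α) (k : ℕ) (h v : Finset α → ℝ) :
    ∑ U ∈ D.powersetCard k, W D h U * v U = ∑ T ∈ D.powersetCard (k + 1), h T * W' v T := by
  have h0 := sum_powersetCard_erase D k (fun U z => h (insert z U) * v U)
  have hR : ∑ U ∈ D.powersetCard k, W D h U * v U
      = ∑ U ∈ D.powersetCard k, ∑ z ∈ D \ U, h (insert z U) * v U := by
    refine Finset.sum_congr rfl (fun U _ => ?_)
    unfold W
    rw [Finset.sum_mul]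
  rw [hR, ← h0]
  refine Finset.sum_congr rfl (fun T _ => ?_)
  unfold W'
  rw [Finset.mul_sum]
  refine Finset.sum_congr rfl (fun z hz => ?_)
  rw [insert_erase hz]

/-- The sharp Johnson gap, energy in swap form. -/
theorem johnson_gap_energy (D : Finset α) :
    ∀ (p : ℕ) (h : Finset α → ℝ), ∑ T ∈ D.powersetCard p, h T = 0 →
      (D.card : ℝ) * ∑ T ∈ D.powersetCard p, h T ^ 2 ≤ energy D p h := by
  intro p
  induction p with
  | zero =>
    intro h hsum
    have h0 : h ∅ = 0 := by simpa using hsum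
    have : ∑ T ∈ D.powersetCard 0, h T ^ 2 = 0 := by simp [h0]
    rw [this, mul_zero]
    exact energy_nonneg D 0 h
  | succ k ih =>
    intro h hsum
    by_cases hm : D.card < k + 1
    · have he : D.powersetCard (k + 1) = ∅ := powersetCard_eq_empty.mpr hm
      rw [he, Finset.sum_empty, mul_zero]
      exact energy_nonneg D (k + 1) h
    · have hkm : k + 1 ≤ D.card := not_lt.mp hm
      have hkm' : (k : ℝ) + 1 ≤ (D.card : ℝ) := by exact_mod_cast hkm
      set m : ℝ := (D.card : ℝ) with hmdef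
      set A : ℝ := ∑ T ∈ D.powersetCard (k + 1), h T ^ 2 with hA
      set N2 : ℝ := ∑ U ∈ D.powersetCard k, W D h U ^ 2 with hN2
      set Q : ℝ := ∑ T ∈ D.powersetCard (k + 1), W' (W D h) T ^ 2 with hQ
      have hA0 : 0 ≤ A := Finset.sum_nonneg (fun T _ => sq_nonneg _)
      have hN0 : 0 ≤ N2 := Finset.sum_nonneg (fun T _ => sq_nonneg _)
      have hk0 : (0 : ℝ) ≤ k := Nat.cast_nonneg k
      -- `W h` has sum zero
      have hv0 : ∑ U ∈ D.powersetCard k, W D h U = 0 := by
        have := sum_up D k h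
        unfold W
        rw [this, hsum, mul_zero]
      have hih := ih (W D h) hv0
      have hstar2 := energy_up D k (W D h)
      have hstar1 := energy_succ D k h
      -- Cauchy-Schwarz
      have hcs : N2 ^ 2 ≤ A * Q := by
        have h1 : N2 = ∑ T ∈ D.powersetCard (k + 1), h T * W' (W D h) T := by
          rw [← sum_W_mul D k h (W D h)]
          exact Finset.sum_congr rfl (fun U _ => by ring)
        rw [h1]
        exact Finset.sum_mul_sq_le_sq_mul_sq _ _ _
      -- `Q ≤ k (m - k - 1) N2`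
      have hQle : Q ≤ (k : ℝ) * (m - k - 1) * N2 := by
        have : Q = ((k : ℝ) + 1) * (m - k) * N2 - energy D k (W D h) := by
          rw [hstar2]; ring
        nlinarith
      have hc0 : 0 ≤ (k : ℝ) * (m - k - 1) := mul_nonneg hk0 (by linarith)
      have hN2le : N2 ≤ (k : ℝ) * (m - k - 1) * A := by
        rcases hN0.eq_or_lt with h0 | hpos
        · rw [← h0]; positivity
        · have h2 : N2 * N2 ≤ ((k : ℝ) * (m - k - 1) * A) * N2 := by nlinarith
          exact le_of_mul_le_mul_right h2 hpos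
      rw [hstar1]
      nlinarith

/-- **Sharp Johnson gap, swap form.**  For a function `h` with sum zero on the `p`-subsets of `D`,
`|D| * ∑ h T ^ 2 ≤ E_J(h)`, where `E_J(h)` is half of the sum of `(h T - h T') ^ 2` over the
ordered pairs `T`, `T' = insert b (T.erase a)` with `a ∈ T`, `b ∈ D \ T`. -/
theorem johnson_gap_swap (D : Finset α) (p : ℕ) (h : Finset α → ℝ)
    (hsum : ∑ T ∈ D.powersetCard p, h T = 0) :
    (D.card : ℝ) * ∑ T ∈ D.powersetCard p, h T ^ 2
      ≤ (1 / 2) * ∑ T ∈ D.powersetCard p, ∑ a ∈ T, ∑ b ∈ D \ T,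
          (h T - h (insert b (T.erase a))) ^ 2 :=
  johnson_gap_energy D p h hsum

/-- The neighbours of `T` in the Johnson graph, parametrised by the exchanged elements. -/
theorem sum_swap_eq_sum_adj (D : Finset α) (p : ℕ) (T : Finset α) (hT : T ∈ D.powersetCard p)
    (g : Finset α → ℝ) :
    ∑ a ∈ T, ∑ b ∈ D \ T, g (insert b (T.erase a))
      = ∑ T2 ∈ (D.powersetCard p).filter (fun T2 => (T \ T2).card = 1), g T2 := by
  obtain ⟨hTD, hTc⟩ := mem_powersetCard.mp hT
  rw [← Finset.sum_product']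
  have himg : (D.powersetCard p).filter (fun T2 => (T \ T2).card = 1)
      = (T ×ˢ (D \ T)).image (fun x : α × α => insert x.2 (T.erase x.1)) := by
    ext T2
    simp only [mem_filter, mem_powersetCard, mem_image, mem_product, mem_sdiff, Prod.exists]
    constructor
    · rintro ⟨⟨hT2D, hT2c⟩, h1⟩
      obtain ⟨a, ha⟩ := card_eq_one.mp h1
      have h2 : (T2 \ T).card = 1 := by
        rw [card_sdiff_comm (by rw [hT2c, hTc])]; exact h1
      obtain ⟨b, hb⟩ := card_eq_one.mp h2
      have haT : a ∈ T \ T2 := by rw [ha]; exact mem_singleton_self a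
      have hbT : b ∈ T2 \ T := by rw [hb]; exact mem_singleton_self b
      rw [mem_sdiff] at haT hbT
      refine ⟨a, b, ⟨haT.1, hT2D hbT.1, hbT.2⟩, ?_⟩
      ext w
      simp only [mem_insert, mem_erase]
      constructor
      · rintro (rfl | ⟨hwa, hwT⟩)
        · exact hbT.1
        · by_contra hw
          have : w ∈ T \ T2 := mem_sdiff.mpr ⟨hwT, hw⟩
          rw [ha, mem_singleton] at this
          exact hwa this
      · intro hw
        by_cases hwT : w ∈ T
        · refine Or.inr ⟨?_, hwT⟩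
          rintro rfl
          exact haT.2 hw
        · have : w ∈ T2 \ T := mem_sdiff.mpr ⟨hw, hwT⟩
          rw [hb, mem_singleton] at this
          exact Or.inl this
    · rintro ⟨a, b, ⟨haT, hbD, hbT⟩, rfl⟩
      have hb' : b ∉ T.erase a := fun h => hbT (mem_of_mem_erase h)
      refine ⟨⟨?_, ?_⟩, ?_⟩
      · intro w hw
        rcases mem_insert.mp hw with rfl | hw
        · exact hbD
        · exact hTD (mem_of_mem_erase hw)
      · rw [card_insert_of_notMem hb', card_erase_of_mem haT, hTc]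
        have : 1 ≤ p := by
          rw [← hTc]; exact card_pos.mpr ⟨a, haT⟩
        omega
      · have : T \ insert b (T.erase a) = {a} := by
          ext w
          simp only [mem_sdiff, mem_insert, mem_erase, mem_singleton, not_or, not_and]
          constructor
          · rintro ⟨hwT, _, hw⟩
            by_contra hwa
            exact hw hwa hwT
          · rintro rfl
            exact ⟨haT, fun h => hbT (h ▸ haT), fun h => (h rfl).elim⟩
        rw [this, card_singleton]
  rw [himg, Finset.sum_image]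
  rintro ⟨a, b⟩ hx ⟨a', b'⟩ hx' heq
  simp only [mem_coe, mem_product, mem_sdiff] at hx hx'
  simp only at heq
  obtain ⟨haT, hbD, hbT⟩ := hx
  obtain ⟨haT', hbD', hbT'⟩ := hx'
  have hbb : b = b' := by
    have : b ∈ insert b' (T.erase a') := by rw [← heq]; exact mem_insert_self _ _
    rcases mem_insert.mp this with h | h
    · exact h
    · exact (hbT (mem_of_mem_erase h)).elim
  have haa : a = a' := by
    have hab : a ≠ b := fun h => hbT (h ▸ haT)
    have h1 : a ∉ insert b (T.erase a) := by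
      simp only [mem_insert, mem_erase, not_or, not_and]
      exact ⟨hab, fun h => (h rfl).elim⟩
    rw [heq] at h1
    by_contra hne
    exact h1 (mem_insert_of_mem (mem_erase.mpr ⟨hne, haT⟩))
  rw [haa, hbb]

/-- **Sharp Johnson gap, adjacency form.**  For a function `h` with sum zero on the `p`-subsets
of `D`, `|D| * ∑ h T ^ 2 ≤ E_J(h)`, where `E_J(h)` is half of the sum of `(h T - h T2) ^ 2`
over the ordered pairs of `p`-subsets of `D` with `(T \ T2).card = 1`, that is, the sum over
the edges of the Johnson graph `J(|D|, p)`. -/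
theorem johnson_gap_sharp (D : Finset α) (p : ℕ) (h : Finset α → ℝ)
    (hsum : ∑ T ∈ D.powersetCard p, h T = 0) :
    (D.card : ℝ) * ∑ T ∈ D.powersetCard p, h T ^ 2
      ≤ (1 / 2) * ∑ T ∈ D.powersetCard p,
          ∑ T2 ∈ (D.powersetCard p).filter (fun T2 => (T \ T2).card = 1), (h T - h T2) ^ 2 := by
  have h1 := johnson_gap_swap D p h hsum
  have h2 : ∑ T ∈ D.powersetCard p, ∑ a ∈ T, ∑ b ∈ D \ T, (h T - h (insert b (T.erase a))) ^ 2
      = ∑ T ∈ D.powersetCard p,
          ∑ T2 ∈ (D.powersetCard p).filter (fun T2 => (T \ T2).card = 1), (h T - h T2) ^ 2 :=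
    Finset.sum_congr rfl (fun T hT => sum_swap_eq_sum_adj D p T hT (fun T2 => (h T - h T2) ^ 2))
  rw [← h2]; exact h1

end Vale.Agent.Lib.P335.H18
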