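import Vale.Agent.Lib.P335.H8.EqAvg

/-!
# P335, graph case: three model-free inputs of the disjoint-pair inequality (PI)

All statements are about the class averages `H8.eavg` of equivalence relations on a finite type.

* `odd_part_nonneg`: if two equivalence relations `rb`, `rb2` satisfy rectangle completion with
  uniqueness on a set `Z` saturated for both, then the `Z`-part of the cross term
  `∑ (g - eavg rb g) * (g - eavg rb2 g)` is nonnegative (on `Z` the two averages commute, and the
  cross term of commuting projections is a square).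
* `eavg_eq_self_of_const`: the average of a function at a point whose class it is constant on.
* `avg_sg_eq`: for a relation `ra` finer than `rb` and an involution `F` preserving `ra` whose
  moved points `N` are `ra`-saturated, if two moved points of one `rb`-class are `ra`-related up
  to `F`, then at a moved point `x` the `ra`-average of the `F`-symmetrisation of `φ` is the mean
  of `φ` over the moved points of the `rb`-class of `x`.
-/

set_option linter.unusedSectionVars false

namespace Vale.Agent.Lib.P335.H18

open Finset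
open Classical
open Vale.Agent.Lib.P335.H8

variable {α : Type} [Fintype α]

/-- The cross term of two commuting class averages is nonnegative. -/
theorem eip_compl_nonneg {r r' : α → α → Prop} (hr : Equivalence r) (hr' : Equivalence r')
    (hc : ∀ f : α → ℝ, eavg r (eavg r' f) = eavg r' (eavg r f)) (k : α → ℝ) :
    0 ≤ eip (k - eavg r k) (k - eavg r' k) := by
  set u : α → ℝ := k - eavg r' k with hu
  set m : α → ℝ := u - eavg r u with hm
  have hAm : eavg r m = 0 := by
    rw [hm, eavg_sub, eavg_idem hr, sub_self]
  have hCu : eavg r' u = 0 := by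
    rw [hu, eavg_sub, eavg_idem hr', sub_self]
  have hCm : eavg r' m = 0 := by
    rw [hm, eavg_sub, hCu, ← hc, hCu, eavg_zero, sub_self]
  have h1 : eip (k - eavg r k) u = eip k m := by
    rw [eip_sub_left, eavg_symm hr, ← eip_sub_right]
  have hz : ∀ w : α → ℝ, eip w (0 : α → ℝ) = 0 := by
    intro w; unfold eip; simp
  have h2 : eip m m = eip u m := by
    have h : eip (u - eavg r u) m = eip u m - eip u (eavg r m) := by
      rw [eip_sub_left, eavg_symm hr]
    rw [hAm, hz, sub_zero] at h
    exact h
  have h3 : eip u m = eip k m := by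
    have h : eip (k - eavg r' k) m = eip k m - eip k (eavg r' m) := by
      rw [eip_sub_left, eavg_symm hr']
    rw [hCm, hz, sub_zero] at h
    exact h
  rw [h1, ← h3, ← h2]
  exact eip_self_nonneg m

/-- The relation `r` cut down to a saturated set `Z`: classes inside `Z` are kept, points outside
`Z` become singletons. -/
def zrel (Z : α → Prop) (r : α → α → Prop) (x y : α) : Prop := (Z x ∧ r x y) ∨ x = y

theorem zrel_equiv {Z : α → Prop} {r : α → α → Prop} (hr : Equivalence r)
    (hZ : ∀ x y, r x y → Z x → Z y) : Equivalence (zrel Z r) := by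
  refine ⟨fun x => Or.inr rfl, ?_, ?_⟩
  · intro x y h
    rcases h with ⟨hx, hxy⟩ | h
    · exact Or.inl ⟨hZ x y hxy hx, hr.symm hxy⟩
    · exact Or.inr h.symm
  · intro x y z h1 h2
    rcases h1 with ⟨hx, hxy⟩ | h1
    · rcases h2 with ⟨_, hyz⟩ | h2
      · exact Or.inl ⟨hx, hr.trans hxy hyz⟩
      · exact Or.inl ⟨hx, h2 ▸ hxy⟩
    · exact h1 ▸ h2

/-- On `Z` the cut-down average of the cut-off function is the original average. -/
theorem eavg_zrel_of_mem {Z : α → Prop} {r : α → α → Prop} (hr : Equivalence r)
    (hZ : ∀ x y, r x y → Z x → Z y) (g : α → ℝ) (x : α) (hx : Z x) :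
    eavg (zrel Z r) (fun y => if Z y then g y else 0) x = eavg r g x := by
  have hcls : ecls (zrel Z r) x = ecls r x := by
    ext y
    rw [mem_ecls, mem_ecls]
    constructor
    · rintro (⟨_, h⟩ | h)
      · exact h
      · exact h ▸ hr.refl x
    · intro h
      exact Or.inl ⟨hx, h⟩
  unfold eavg
  rw [hcls]
  congr 1
  refine Finset.sum_congr rfl fun y hy => ?_
  exact if_pos (hZ x y (mem_ecls.1 hy) hx)

/-- Off `Z` the cut-down average of the cut-off function vanishes. -/
theorem eavg_zrel_of_not_mem {Z : α → Prop} {r : α → α → Prop} (g : α → ℝ) (x : α)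
    (hx : ¬ Z x) : eavg (zrel Z r) (fun y => if Z y then g y else 0) x = 0 := by
  have hcls : ecls (zrel Z r) x = {x} := by
    ext y
    rw [mem_ecls, mem_singleton]
    constructor
    · rintro (⟨h, _⟩ | h)
      · exact (hx h).elim
      · exact h.symm
    · intro h
      exact Or.inr h.symm
  unfold eavg
  rw [hcls, Finset.sum_singleton, if_neg hx, zero_div]

/-- **Odd part.**  If `Z` is saturated for the equivalence relations `rb` and `rb2` and on `Z`
every `rb`-`rb2` chain can be completed to a rectangle, with two points related by both relations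
being equal, then the part of the cross term supported on `Z` is nonnegative. -/
theorem odd_part_nonneg (rb rb2 : α → α → Prop) (hrb : Equivalence rb) (hrb2 : Equivalence rb2)
    (Z : α → Prop) (hZb : ∀ x y, rb x y → Z x → Z y) (hZb2 : ∀ x y, rb2 x y → Z x → Z y)
    (hrect : ∀ x y z, Z x → rb x y → rb2 y z → ∃ w, rb2 x w ∧ rb w z)
    (huniq : ∀ x y, Z x → rb x y → rb2 x y → x = y) (g : α → ℝ) :
    0 ≤ ∑ x ∈ univ.filter Z, (g x - eavg rb g x) * (g x - eavg rb2 g x) := by
  have hE := zrel_equiv hrb hZb
  have hE2 := zrel_equiv hrb2 hZb2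
  -- the two cut-down averages commute
  have hbij : ∀ u v : α, zrel Z rb2 u v → ∃ φ ψ : α → α,
      (∀ w, zrel Z rb u w → zrel Z rb v (φ w) ∧ zrel Z rb2 w (φ w) ∧ ψ (φ w) = w) ∧
      (∀ w, zrel Z rb v w → zrel Z rb u (ψ w) ∧ φ (ψ w) = w) := by
    intro u v huv
    rcases huv with ⟨hu, huv⟩ | huv
    · have hv : Z v := hZb2 u v huv hu
      -- completion maps
      have ex1 : ∀ w, rb u w → ∃ w', rb v w' ∧ rb2 w w' := by
        intro w hw
        obtain ⟨w0, h1, h2⟩ := hrect w u v (hZb u w hw hu) (hrb.symm hw) huv
        exact ⟨w0, hrb.symm h2, h1⟩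
      have ex2 : ∀ w, rb v w → ∃ w', rb u w' ∧ rb2 w w' := by
        intro w hw
        obtain ⟨w0, h1, h2⟩ := hrect w v u (hZb v w hw hv) (hrb.symm hw) (hrb2.symm huv)
        exact ⟨w0, hrb.symm h2, h1⟩
      let φ : α → α := fun w => if h : ∃ w', rb v w' ∧ rb2 w w' then Classical.choose h else w
      let ψ : α → α := fun w => if h : ∃ w', rb u w' ∧ rb2 w w' then Classical.choose h else w
      have hφ : ∀ w, rb u w → rb v (φ w) ∧ rb2 w (φ w) := by
        intro w hw
        have h := ex1 w hw
        show rb v (if h : ∃ w', rb v w' ∧ rb2 w w' then Classical.choose h else w) ∧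
          rb2 w (if h : ∃ w', rb v w' ∧ rb2 w w' then Classical.choose h else w)
        rw [dif_pos h]
        exact Classical.choose_spec h
      have hψ : ∀ w, rb v w → rb u (ψ w) ∧ rb2 w (ψ w) := by
        intro w hw
        have h := ex2 w hw
        show rb u (if h : ∃ w', rb u w' ∧ rb2 w w' then Classical.choose h else w) ∧
          rb2 w (if h : ∃ w', rb u w' ∧ rb2 w w' then Classical.choose h else w)
        rw [dif_pos h]
        exact Classical.choose_spec h
      have hu' : ∀ w, zrel Z rb u w → rb u w := by
        rintro w (⟨_, h⟩ | h)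
        · exact h
        · exact h ▸ hrb.refl u
      have hv' : ∀ w, zrel Z rb v w → rb v w := by
        rintro w (⟨_, h⟩ | h)
        · exact h
        · exact h ▸ hrb.refl v
      refine ⟨φ, ψ, ?_, ?_⟩
      · intro w hw
        have hw' := hu' w hw
        have hZw : Z w := hZb u w hw' hu
        obtain ⟨h1, h2⟩ := hφ w hw'
        refine ⟨Or.inl ⟨hv, h1⟩, Or.inl ⟨hZw, h2⟩, ?_⟩
        obtain ⟨h3, h4⟩ := hψ (φ w) h1
        -- `ψ (φ w)` and `w` are related by both relations
        have h5 : rb w (ψ (φ w)) := hrb.trans (hrb.symm hw') h3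
        have h6 : rb2 w (ψ (φ w)) := hrb2.trans h2 h4
        exact (huniq w _ hZw h5 h6).symm
      · intro w hw
        have hw' := hv' w hw
        have hZw : Z w := hZb v w hw' hv
        obtain ⟨h1, h2⟩ := hψ w hw'
        refine ⟨Or.inl ⟨hu, h1⟩, ?_⟩
        obtain ⟨h3, h4⟩ := hφ (ψ w) h1
        have h5 : rb w (φ (ψ w)) := hrb.trans (hrb.symm hw') h3
        have h6 : rb2 w (φ (ψ w)) := hrb2.trans h2 h4
        exact (huniq w _ hZw h5 h6).symm
    · subst huv
      exact ⟨id, id, fun w hw => ⟨hw, hE2.refl w, rfl⟩, fun w hw => ⟨hw, rfl⟩⟩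
  have hcomm : ∀ f : α → ℝ, eavg (zrel Z rb) (eavg (zrel Z rb2) f)
      = eavg (zrel Z rb2) (eavg (zrel Z rb) f) :=
    eavg_comm_of_preserves hE hE2 (eavg_preserves_of_bij hbij)
  have hpos := eip_compl_nonneg hE hE2 hcomm (fun y => if Z y then g y else 0)
  have heq : eip ((fun y => if Z y then g y else 0) - eavg (zrel Z rb) (fun y => if Z y then g y else 0))
      ((fun y => if Z y then g y else 0) - eavg (zrel Z rb2) (fun y => if Z y then g y else 0))
      = ∑ x ∈ univ.filter Z, (g x - eavg rb g x) * (g x - eavg rb2 g x) := by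
    unfold eip
    rw [Finset.sum_filter]
    refine Finset.sum_congr rfl fun x _ => ?_
    by_cases hx : Z x
    · have e1 := eavg_zrel_of_mem hrb hZb g x hx
      have e2 := eavg_zrel_of_mem hrb2 hZb2 g x hx
      simp only [Pi.sub_apply, e1, e2, if_pos hx]
    · have e1 := eavg_zrel_of_not_mem (r := rb) g x hx
      have e2 := eavg_zrel_of_not_mem (r := rb2) g x hx
      simp only [Pi.sub_apply, e1, e2, if_neg hx]
      ring
  rw [← heq]
  exact hpos

/-- The class average at a point on whose class the function is constant. -/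
theorem eavg_eq_self_of_const {r : α → α → Prop} (hr : Equivalence r) (g : α → ℝ) (x : α)
    (h : ∀ y, r x y → g y = g x) : eavg r g x = g x := by
  unfold eavg
  have h1 : ∑ y ∈ ecls r x, g y = ∑ _y ∈ ecls r x, g x :=
    Finset.sum_congr rfl fun y hy => h y (mem_ecls.1 hy)
  rw [h1, Finset.sum_const, nsmul_eq_mul]
  have hpos := card_ecls_pos hr x
  field_simp

/-- **Even part.**  If `g` is constant on the classes of `ra` and the `rb`-class of `x` lies
inside its `ra`-class, then `g - eavg rb g` vanishes at `x`. -/
theorem even_part_zero {ra rb : α → α → Prop} (hrb : Equivalence rb) (g : α → ℝ)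
    (hg : EInv ra g) (x : α) (hx : ∀ y, rb x y → ra x y) : g x - eavg rb g x = 0 := by
  rw [eavg_eq_self_of_const hrb g x (fun y hy => (hg x y (hx y hy)).symm), sub_self]

/-- **Moved part.**  Let `ra` be finer than `rb`, let `F` be an involution that preserves `ra`
and stays inside the `rb`-classes, let the set `N` of moved points of `F` be saturated for `ra`,
and suppose two moved points of one `rb`-class are `ra`-related up to `F`.  Then at every moved
point `x` the `ra`-average of the symmetrised function `(φ + φ ∘ F) / 2` equals the mean of `φ`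
over the moved points of the `rb`-class of `x`. -/
theorem avg_sg_eq (ra rb : α → α → Prop) (hra : Equivalence ra) (hrb : Equivalence rb)
    (F : α → α) (hF : ∀ x, F (F x) = x) (hFb : ∀ x, rb x (F x))
    (hFa : ∀ x y, ra x y → ra (F x) (F y)) (hab : ∀ x y, ra x y → rb x y)
    (hNa : ∀ x y, ra x y → F x ≠ x → F y ≠ y)
    (hN : ∀ x y, F x ≠ x → F y ≠ y → rb x y → ra x y ∨ ra x (F y))
    (φ : α → ℝ) (x : α) (hx : F x ≠ x) :
    eavg ra (fun y => (φ y + φ (F y)) / 2) x
      = (∑ y ∈ (ecls rb x).filter (fun y => F y ≠ y), φ y)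
          / (((ecls rb x).filter (fun y => F y ≠ y)).card : ℝ) := by
  have hFx : F (F x) ≠ F x := by rw [hF]; exact fun h => hx h.symm
  -- `F` maps the `ra`-class of `x` onto the `ra`-class of `F x`
  have hbij : ∀ G : α → ℝ, ∑ y ∈ ecls ra x, G (F y) = ∑ y ∈ ecls ra (F x), G y := by
    intro G
    refine Finset.sum_bij' (fun y _ => F y) (fun y _ => F y) ?_ ?_ ?_ ?_ ?_
    · intro y hy
      exact mem_ecls.2 (hFa x y (mem_ecls.1 hy))
    · intro y hy
      have := hFa (F x) y (mem_ecls.1 hy)
      rw [hF] at this
      exact mem_ecls.2 this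
    · intro y _; exact hF y
    · intro y _; exact hF y
    · intro y _; rfl
  have hcard : ((ecls ra (F x)).card : ℝ) = ((ecls ra x).card : ℝ) := by
    have h := hbij (fun _ => (1 : ℝ))
    simp only [Finset.sum_const, nsmul_eq_mul, mul_one] at h
    exact h.symm
  have hpos := card_ecls_pos hra x
  -- the moved points of the `rb`-class
  have hS : (ecls rb x).filter (fun y => F y ≠ y) = ecls ra x ∪ ecls ra (F x) := by
    ext y
    rw [mem_filter, mem_union, mem_ecls, mem_ecls, mem_ecls]
    constructor
    · rintro ⟨hxy, hy⟩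
      rcases hN x y hx hy hxy with h | h
      · exact Or.inl h
      · have := hFa x (F y) h
        rw [hF] at this
        exact Or.inr this
    · rintro (h | h)
      · exact ⟨hab x y h, hNa x y h hx⟩
      · exact ⟨hrb.trans (hFb x) (hab (F x) y h), hNa (F x) y h hFx⟩
  have hL : eavg ra (fun y => (φ y + φ (F y)) / 2) x
      = (∑ y ∈ ecls ra x, φ y + ∑ y ∈ ecls ra (F x), φ y) / (2 * ((ecls ra x).card : ℝ)) := by
    unfold eavg
    rw [← hbij φ, ← Finset.sum_add_distrib, ← Finset.sum_div]
    field_simp
  rw [hL, hS]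
  by_cases hxx : ra x (F x)
  · have hcls : ecls ra (F x) = ecls ra x := ecls_eq_of_rel hra hxx
    rw [hcls, Finset.union_self]
    field_simp
    ring
  · have hdisj : Disjoint (ecls ra x) (ecls ra (F x)) := by
      rw [Finset.disjoint_left]
      intro y hy hy'
      exact hxx (hra.trans (mem_ecls.1 hy) (hra.symm (mem_ecls.1 hy')))
    rw [Finset.sum_union hdisj, Finset.card_union_of_disjoint hdisj]
    push_cast
    rw [hcard]
    congr 1
    ring

end Vale.Agent.Lib.P335.H18
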